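import Mathlib

/-!
(L-B) of the star-forest package for P064: if the vertices of `C` are pairwise non-adjacent in
`F` and have no common neighbours, then an injective homomorphism `F → H` is determined, up to
at most `(n - v')!` choices, by the images of the closed stars of the vertices of `C`, where
`v'` is the total number of vertices of these closed stars.
-/

namespace Vale.Agent.Lib.P064T

open Finset SimpleGraph

/-- The data of a copy at a vertex `c`: the image of `c` and the induced injection of the
neighbours of `c` into the neighbourhood of that image. -/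
def starData {V : Type*} (F H : SimpleGraph V) (c : V) (f : Copy F H) :
    Σ v : V, (F.neighborSet c ↪ H.neighborSet v) :=
  ⟨f c, ⟨fun w => ⟨f w, f.toHom.map_adj w.2⟩, fun w w' h => by
      have h1 : f w = f w' := congrArg Subtype.val h
      exact Subtype.ext (f.injective h1)⟩⟩

theorem starData_eq {V : Type*} {F H : SimpleGraph V} {c : V} {f g : Copy F H}
    (h : starData F H c f = starData F H c g) : f c = g c ∧ ∀ w, F.Adj c w → f w = g w := by
  have key : ∀ (x y : Σ v : V, (F.neighborSet c ↪ H.neighborSet v)), x = y →
      ∀ a, ((x.2 a : H.neighborSet x.1) : V) = ((y.2 a : H.neighborSet y.1) : V) := by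
    intro x y hxy a
    subst hxy
    rfl
  exact ⟨congrArg Sigma.fst h, fun w hw => key _ _ h ⟨w, hw⟩⟩

/-- The number of star data at `c`. -/
theorem card_starData {V : Type*} [Fintype V] (F H : SimpleGraph V) (c : V)
    (inst : Fintype (Σ v : V, (F.neighborSet c ↪ H.neighborSet v))) :
    @Fintype.card _ inst =
      ∑ v : V, ((H.neighborSet v).ncard).descFactorial ((F.neighborSet c).ncard) := by
  classical
  rw [@Fintype.card_eq_nat_card _ inst, Nat.card_sigma]
  refine Finset.sum_congr rfl fun v _ => ?_
  rw [Nat.card_eq_fintype_card, Fintype.card_embedding_eq]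
  congr 1 <;> rw [← Nat.card_coe_set_eq, Nat.card_eq_fintype_card]

/-- Counting labelled copies through separated closed stars, on an arbitrary finite vertex type. -/
theorem count_of_separated_gen {V : Type*} [Fintype V] [DecidableEq V] (F H : SimpleGraph V)
    (C : Finset V)
    (hsep : ∀ c ∈ C, ∀ c' ∈ C, c ≠ c' → (¬ F.Adj c c') ∧ ∀ w, F.Adj c w → ¬ F.Adj c' w) :
    (∑ c ∈ C, ((F.neighborSet c).ncard + 1)) ≤ Fintype.card V ∧
    H.labelledCopyCount F ≤
      (∏ c ∈ C, ∑ v : V, ((H.neighborSet v).ncard).descFactorial ((F.neighborSet c).ncard)) *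
        (Fintype.card V - ∑ c ∈ C, ((F.neighborSet c).ncard + 1)).factorial := by
  classical
  set St : V → Finset V := fun c => insert c (F.neighborSet c).toFinset with hSt
  have hStcard : ∀ c, (St c).card = (F.neighborSet c).ncard + 1 := by
    intro c
    have h1 : c ∉ (F.neighborSet c).toFinset := by simp
    rw [hSt]
    simp only
    rw [Finset.card_insert_of_notMem h1, Set.ncard_eq_toFinset_card']
  have hdisj : ∀ c ∈ C, ∀ c' ∈ C, c ≠ c' → Disjoint (St c) (St c') := by
    intro c hc c' hc' hne
    rw [Finset.disjoint_left]
    intro x hx hx'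
    simp only [hSt, Finset.mem_insert, Set.mem_toFinset, mem_neighborSet] at hx hx'
    have h1 := hsep c hc c' hc' hne
    have h2 := hsep c' hc' c hc (Ne.symm hne)
    rcases hx with rfl | hx
    · rcases hx' with rfl | hx'
      · exact hne rfl
      · exact h2.1 hx'
    · rcases hx' with rfl | hx'
      · exact h1.1 hx
      · exact h1.2 x hx hx'
  set W0 : Finset V := C.biUnion St with hW0
  have hW0card : W0.card = ∑ c ∈ C, ((F.neighborSet c).ncard + 1) := by
    rw [hW0, Finset.card_biUnion hdisj]
    exact Finset.sum_congr rfl (fun c _ => hStcard c)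
  refine ⟨?_, ?_⟩
  · rw [← hW0card]
    exact Finset.card_le_univ W0
  let D := ∀ c : {c // c ∈ C}, Σ v : V, (F.neighborSet c.1 ↪ H.neighborSet v)
  let Ψ : Copy F H → D := fun f c => starData F H c.1 f
  have hagree : ∀ f g : Copy F H, Ψ f = Ψ g → ∀ x ∈ W0, f x = g x := by
    intro f g h x hx
    rw [hW0, Finset.mem_biUnion] at hx
    obtain ⟨c, hc, hx⟩ := hx
    have h1 := starData_eq (congrFun h ⟨c, hc⟩)
    simp only [hSt, Finset.mem_insert, Set.mem_toFinset, mem_neighborSet] at hx
    rcases hx with rfl | hx
    · exact h1.1
    · exact h1.2 x hx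
  have hfib : ∀ a ∈ (Finset.univ : Finset (Copy F H)).image Ψ,
      ((Finset.univ : Finset (Copy F H)).filter (fun f => Ψ f = a)).card ≤
        (Fintype.card V - W0.card).factorial := by
    intro a ha
    obtain ⟨f0, -, rfl⟩ := Finset.mem_image.1 ha
    have bij : ∀ f : Copy F H, Function.Bijective f := fun f =>
      Finite.injective_iff_bijective.1 f.injective
    let ef : Copy F H → Equiv.Perm V := fun f => Equiv.ofBijective f (bij f)
    let P := {σ : Equiv.Perm V // ∀ a, ¬ (a ∉ W0) → σ a = a}
    let φ : {f : Copy F H // Ψ f = Ψ f0} → P := fun f =>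
      ⟨(ef f.1).trans (ef f0).symm, fun a ha => by
        have ha' : a ∈ W0 := not_not.1 ha
        have h1 : f.1 a = f0 a := hagree f.1 f0 f.2 a ha'
        show (ef f0).symm (f.1 a) = a
        rw [h1]
        exact (ef f0).symm_apply_apply a⟩
    have hφ : Function.Injective φ := by
      intro f g hfg
      have h1 : (ef f.1).trans (ef f0).symm = (ef g.1).trans (ef f0).symm :=
        congrArg Subtype.val hfg
      apply Subtype.ext
      apply Copy.ext
      intro x
      have h2 := congrArg (fun σ : Equiv.Perm V => σ x) h1
      exact (ef f0).symm.injective h2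
    have hP : Fintype.card P = (Fintype.card V - W0.card).factorial := by
      calc Fintype.card P = Fintype.card (Equiv.Perm {a // a ∉ W0}) :=
            Fintype.card_congr (Equiv.Perm.subtypeEquivSubtypePerm (fun a => a ∉ W0)).symm
        _ = (Fintype.card {a // a ∉ W0}).factorial := Fintype.card_perm
        _ = (Fintype.card V - W0.card).factorial := by
            rw [Fintype.card_subtype_compl, Fintype.card_coe]
    calc ((Finset.univ : Finset (Copy F H)).filter (fun f => Ψ f = Ψ f0)).card
        = Fintype.card {f : Copy F H // Ψ f = Ψ f0} := (Fintype.card_subtype _).symm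
      _ ≤ Fintype.card P := Fintype.card_le_of_injective φ hφ
      _ = _ := hP
  have hmain := Finset.card_le_mul_card_image (Finset.univ : Finset (Copy F H)) _ hfib
  have himg : ((Finset.univ : Finset (Copy F H)).image Ψ).card ≤ Fintype.card D :=
    Finset.card_le_univ _
  have hD : Fintype.card D = ∏ c ∈ C, ∑ v : V,
      ((H.neighborSet v).ncard).descFactorial ((F.neighborSet c).ncard) := by
    rw [Fintype.card_pi, ← Finset.prod_coe_sort C (fun c => ∑ v : V,
      ((H.neighborSet v).ncard).descFactorial ((F.neighborSet c).ncard))]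
    exact Finset.prod_congr rfl (fun c _ => card_starData F H c.1 _)
  have hcopy : H.labelledCopyCount F = (Finset.univ : Finset (Copy F H)).card := by
    have e1 : H.labelledCopyCount F = Nat.card (Copy F H) := by
      unfold labelledCopyCount
      exact Fintype.card_eq_nat_card
    rw [e1, Finset.card_univ]
    exact Fintype.card_eq_nat_card.symm
  rw [hcopy, ← hW0card, ← hD, mul_comm]
  exact hmain.trans (Nat.mul_le_mul_left _ himg)

/-- (L-B): counting labelled copies through separated closed stars, on `Fin n`. -/
theorem count_of_separated {n : ℕ} (F H : SimpleGraph (Fin n)) (C : Finset (Fin n))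
    (hsep : ∀ c ∈ C, ∀ c' ∈ C, c ≠ c' → (¬ F.Adj c c') ∧ ∀ w, F.Adj c w → ¬ F.Adj c' w) :
    (∑ c ∈ C, ((F.neighborSet c).ncard + 1)) ≤ n ∧
    H.labelledCopyCount F ≤
      (∏ c ∈ C, ∑ v : Fin n,
        ((H.neighborSet v).ncard).descFactorial ((F.neighborSet c).ncard)) *
        (n - ∑ c ∈ C, ((F.neighborSet c).ncard + 1)).factorial := by
  have h := count_of_separated_gen F H C hsep
  rw [Fintype.card_fin] at h
  exact h

end Vale.Agent.Lib.P064T
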