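import Vale.Agent.Lib.P064T.Centres
import Vale.Agent.Lib.P064T.Count

/-!
(T2) of the star-forest package for P064: a labelled copy of a star forest is determined by the
images of the closed stars of its centres, up to the images of the remaining vertices.
-/

namespace Vale.Agent.Lib.P064T

open Finset

/-- (T2) injection: a labelled copy of a star forest is determined by the images of the closed
stars and of the isolated vertices. -/
theorem forest_count {n : ℕ} (F H : SimpleGraph (Fin n)) (hF : IsStarForest F) :
    ∃ (C : Finset (Fin n)) (k : Fin n → ℕ), (∀ c ∈ C, 1 ≤ k c) ∧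
      ∑ c ∈ C, k c = F.edgeSet.ncard ∧ ∑ c ∈ C, (k c + 1) ≤ n ∧
      H.labelledCopyCount F ≤
        (∏ c ∈ C, ∑ v : Fin n, ((H.neighborSet v).ncard).descFactorial (k c)) *
          (n - ∑ c ∈ C, (k c + 1)).factorial := by
  obtain ⟨C, h1, h2, hsep⟩ := star_centres F hF
  obtain ⟨h3, h4⟩ := count_of_separated F H C hsep
  exact ⟨C, fun c => (F.neighborSet c).ncard, h1, h2, h3, h4⟩

end Vale.Agent.Lib.P064T
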