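import Mathlib
import Vale.Agent.Lib.Helper2.P064U

/-!
(T3) of the star-forest package for P064: the arithmetic step.  A product of falling factorials
`(n)_{k c + 1}` over the centres, times the factorial of the number of remaining vertices, is at
most `n! * e^(2 * ∑ k c)`.
-/

namespace Vale.Agent.Lib.P064T

open Finset

/-- (T3) arithmetic. -/
theorem forest_arith (n : ℕ) (C : Finset (Fin n)) (k : Fin n → ℕ) (hk : ∀ c ∈ C, 1 ≤ k c)
    (hv : ∑ c ∈ C, (k c + 1) ≤ n) (x : ℝ) (hx : 0 ≤ x) :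
    (∏ c ∈ C, ((n.descFactorial (k c + 1) : ℝ) * x ^ k c)) *
        ((n - ∑ c ∈ C, (k c + 1)).factorial : ℝ) ≤
      (n.factorial : ℝ) * (Real.exp 2 * x) ^ (∑ c ∈ C, k c) := by
  set K := ∑ c ∈ C, k c with hK
  set v := ∑ c ∈ C, (k c + 1) with hvdef
  have h1 : (∏ c ∈ C, ((n.descFactorial (k c + 1) : ℝ) * x ^ k c)) =
      (∏ c ∈ C, (n.descFactorial (k c + 1) : ℝ)) * x ^ K := by
    rw [Finset.prod_mul_distrib, Finset.prod_pow_eq_pow_sum]
  have h2 : (∏ c ∈ C, (n.descFactorial (k c + 1) : ℝ)) ≤ (n : ℝ) ^ v := by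
    rw [hvdef, ← Finset.prod_pow_eq_pow_sum]
    refine Finset.prod_le_prod (fun c _ => Nat.cast_nonneg _) (fun c _ => ?_)
    exact_mod_cast Nat.descFactorial_le_pow n (k c + 1)
  have h3 : (n : ℝ) ^ v ≤ Real.exp v * (n.descFactorial v : ℝ) :=
    Vale.Agent.Lib.Helper2.P064U.pow_le_exp_mul_descFactorial n v hv
  have h4 : (n.descFactorial v : ℝ) * ((n - v).factorial : ℝ) = (n.factorial : ℝ) := by
    have h := Nat.factorial_mul_descFactorial hv
    rw [mul_comm] at h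
    exact_mod_cast h
  have h5 : v ≤ 2 * K := by
    have hc : C.card ≤ K := by
      rw [hK]
      calc C.card = ∑ _c ∈ C, 1 := by simp
        _ ≤ ∑ c ∈ C, k c := Finset.sum_le_sum hk
    have hvK : v = K + C.card := by
      rw [hvdef, hK, Finset.sum_add_distrib]
      simp
    omega
  have h6 : Real.exp v ≤ Real.exp 2 ^ K := by
    rw [← Real.exp_nat_mul]
    apply Real.exp_le_exp.2
    have h : (v : ℝ) ≤ ((2 * K : ℕ) : ℝ) := by exact_mod_cast h5
    push_cast at h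
    linarith
  have hxK : 0 ≤ x ^ K := pow_nonneg hx K
  have hf : (0 : ℝ) ≤ ((n - v).factorial : ℝ) := Nat.cast_nonneg _
  have hnf : (0 : ℝ) ≤ (n.factorial : ℝ) := Nat.cast_nonneg _
  have hd : (0 : ℝ) ≤ (n.descFactorial v : ℝ) := Nat.cast_nonneg _
  calc (∏ c ∈ C, ((n.descFactorial (k c + 1) : ℝ) * x ^ k c)) * ((n - v).factorial : ℝ)
      = (∏ c ∈ C, (n.descFactorial (k c + 1) : ℝ)) * x ^ K * ((n - v).factorial : ℝ) := by
        rw [h1]
    _ ≤ (Real.exp v * (n.descFactorial v : ℝ)) * x ^ K * ((n - v).factorial : ℝ) :=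
        mul_le_mul_of_nonneg_right (mul_le_mul_of_nonneg_right (h2.trans h3) hxK) hf
    _ = Real.exp v * ((n.descFactorial v : ℝ) * ((n - v).factorial : ℝ)) * x ^ K := by ring
    _ = Real.exp v * (n.factorial : ℝ) * x ^ K := by rw [h4]
    _ ≤ Real.exp 2 ^ K * (n.factorial : ℝ) * x ^ K :=
        mul_le_mul_of_nonneg_right (mul_le_mul_of_nonneg_right h6 hnf) hxK
    _ = (n.factorial : ℝ) * (Real.exp 2 * x) ^ K := by
        rw [mul_pow]
        ring

end Vale.Agent.Lib.P064T
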