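import Mathlib

/-!
# P064 (star forests): shared definition

`IsStarForest G`: every edge of `G` has an endpoint of degree one, i.e. every connected
component of `G` is a star `K_{1,k}` (`k ≥ 1`) or a single vertex.  FROZEN (lead owns it).
-/

namespace Vale.Agent.Lib.P064T

/-- Every edge has an endpoint whose only neighbour is the other endpoint:
the components of `G` are stars or single vertices. -/
def IsStarForest {V : Type*} (G : SimpleGraph V) : Prop :=
  ∀ u v, G.Adj u v → (∀ w, G.Adj u w → w = v) ∨ (∀ w, G.Adj v w → w = u)

theorem IsStarForest.mono {V : Type*} {F H : SimpleGraph V} (hH : IsStarForest H) (h : F ≤ H) :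
    IsStarForest F := by
  intro u v huv
  rcases hH u v (h huv) with h1 | h1
  · exact Or.inl fun w hw => h1 w (h hw)
  · exact Or.inr fun w hw => h1 w (h hw)

end Vale.Agent.Lib.P064T
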