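import Vale.Agent.Lib.P064T.Defs

/-!
# P064 (star forests): the centres of a star forest

In a star forest every edge has exactly one endpoint in the set `C` of centres: the vertices
having a leaf neighbour, where for an isolated edge only the smaller endpoint is taken.  Two
centres are never adjacent and never have a common neighbour, and the edges correspond to the
pairs (centre, neighbour of that centre).
-/

namespace Vale.Agent.Lib.P064T
open Finset

/-- `u` has no neighbour other than (possibly) `v`. -/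
def LeafAt {V : Type*} (G : SimpleGraph V) (u v : V) : Prop := ∀ w, G.Adj u w → w = v

/-- `c` is a centre: it has a neighbour `w` that is a leaf at `c`, and if `c` is itself a leaf at
`w` (an isolated edge) then `c` is the smaller endpoint. -/
def IsCentre {n : ℕ} (F : SimpleGraph (Fin n)) (c : Fin n) : Prop :=
  ∃ w, F.Adj c w ∧ LeafAt F w c ∧ (LeafAt F c w → c < w)

theorem centre_or_centre {n : ℕ} (F : SimpleGraph (Fin n)) (hF : IsStarForest F) (u v : Fin n)
    (huv : F.Adj u v) : IsCentre F u ∨ IsCentre F v := by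
  rcases hF u v huv with h | h
  · by_cases h' : LeafAt F v u
    · rcases lt_or_gt_of_ne huv.ne with hlt | hgt
      · exact Or.inl ⟨v, huv, h', fun _ => hlt⟩
      · exact Or.inr ⟨u, huv.symm, h, fun _ => hgt⟩
    · exact Or.inr ⟨u, huv.symm, h, fun hc => absurd hc h'⟩
  · by_cases h' : LeafAt F u v
    · rcases lt_or_gt_of_ne huv.ne with hlt | hgt
      · exact Or.inl ⟨v, huv, h, fun _ => hlt⟩
      · exact Or.inr ⟨u, huv.symm, h', fun _ => hgt⟩
    · exact Or.inl ⟨v, huv, h, fun hc => absurd hc h'⟩

theorem centre_not_adj {n : ℕ} (F : SimpleGraph (Fin n)) (hF : IsStarForest F) (c c' : Fin n)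
    (hc : IsCentre F c) (hc' : IsCentre F c') : ¬ F.Adj c c' := by
  intro hadj
  obtain ⟨w, hw1, hw2, hw3⟩ := hc
  obtain ⟨w', hw1', hw2', hw3'⟩ := hc'
  rcases hF c c' hadj with h | h
  · have e1 : w = c' := h w hw1
    rw [e1] at hw2 hw3
    have e2 : w' = c := hw2 w' hw1'
    rw [e2] at hw2' hw3'
    exact lt_asymm (hw3 h) (hw3' hw2)
  · have e1 : w' = c := h w' hw1'
    rw [e1] at hw2' hw3'
    have e2 : w = c' := hw2' w hw1
    rw [e2] at hw2 hw3
    exact lt_asymm (hw3 hw2') (hw3' h)

theorem centre_no_common {n : ℕ} (F : SimpleGraph (Fin n)) (hF : IsStarForest F) (c c' : Fin n)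
    (hc : IsCentre F c) (hne : c ≠ c') (x : Fin n) (h1 : F.Adj c x) (h2 : F.Adj c' x) : False := by
  obtain ⟨w, hw1, hw2, -⟩ := hc
  have hx : ¬ LeafAt F x c := fun hl => hne (hl c' h2.symm).symm
  rcases hF c x h1 with h | h
  · have e : w = x := h w hw1
    rw [e] at hw2
    exact hx hw2
  · exact hx h

/-- (L-A) The centres of a star forest: every centre has a neighbour, the degrees of the centres
add up to the number of edges, and distinct centres are non-adjacent without common neighbours. -/
theorem star_centres {n : ℕ} (F : SimpleGraph (Fin n)) (hF : IsStarForest F) :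
    ∃ C : Finset (Fin n),
      (∀ c ∈ C, 1 ≤ (F.neighborSet c).ncard) ∧
      (∑ c ∈ C, (F.neighborSet c).ncard) = F.edgeSet.ncard ∧
      (∀ c ∈ C, ∀ c' ∈ C, c ≠ c' → (¬ F.Adj c c') ∧ ∀ w, F.Adj c w → ¬ F.Adj c' w) := by
  classical
  set C : Finset (Fin n) := univ.filter (fun c => IsCentre F c) with hC
  have hCmem : ∀ c, c ∈ C ↔ IsCentre F c := by
    intro c
    rw [hC, Finset.mem_filter]
    exact ⟨fun h => h.2, fun h => ⟨Finset.mem_univ _, h⟩⟩
  refine ⟨C, ?_, ?_, ?_⟩
  · intro c hc
    obtain ⟨w, hw, -⟩ := (hCmem c).1 hc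
    have hne : (F.neighborSet c).Nonempty := ⟨w, hw⟩
    exact (Set.ncard_pos (Set.toFinite _)).2 hne
  · -- the pairs (centre, neighbour)
    set A : Finset (Σ _ : Fin n, Fin n) :=
      C.sigma (fun v => (univ : Finset (Fin n)).filter (fun w => F.Adj v w)) with hA
    have hdeg : ∀ v ∈ C, ((univ : Finset (Fin n)).filter (fun w => F.Adj v w)).card =
        (F.neighborSet v).ncard := by
      intro v _
      rw [← Set.ncard_coe_finset]
      congr 1
      ext w
      simp [SimpleGraph.mem_neighborSet]
    have hcardA : A.card = ∑ c ∈ C, (F.neighborSet c).ncard := by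
      rw [hA, Finset.card_sigma, Finset.sum_congr rfl hdeg]
    have hmem : ∀ p : (Σ _ : Fin n, Fin n), p ∈ (A : Set (Σ _ : Fin n, Fin n)) ↔
        (p.1 ∈ C ∧ F.Adj p.1 p.2) := by
      intro p
      rw [Finset.mem_coe, hA, Finset.mem_sigma]
      constructor
      · intro h
        exact ⟨h.1, (Finset.mem_filter.1 h.2).2⟩
      · intro h
        exact ⟨h.1, Finset.mem_filter.2 ⟨Finset.mem_univ _, h.2⟩⟩
    have hinj : Set.InjOn (fun p : (Σ _ : Fin n, Fin n) => s(p.1, p.2))
        (A : Set (Σ _ : Fin n, Fin n)) := by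
      intro p hp q hq h
      have hp' := (hmem p).1 hp
      have hq' := (hmem q).1 hq
      rcases Sym2.eq_iff.1 h with ⟨h1, h2⟩ | ⟨h1, h2⟩
      · obtain ⟨p1, p2⟩ := p
        obtain ⟨q1, q2⟩ := q
        simp only at h1 h2
        rw [h1, h2]
      · exfalso
        have h3 : F.Adj q.1 p.1 := by
          rw [h1]
          exact hq'.2
        exact centre_not_adj F hF q.1 p.1 ((hCmem _).1 hq'.1) ((hCmem _).1 hp'.1) h3
    have himg : (fun p : (Σ _ : Fin n, Fin n) => s(p.1, p.2)) '' (A : Set (Σ _ : Fin n, Fin n)) =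
        F.edgeSet := by
      ext e
      constructor
      · rintro ⟨p, hp, rfl⟩
        exact ((hmem p).1 hp).2
      · intro he
        induction e using Sym2.ind with
        | _ u v =>
          have huv : F.Adj u v := he
          rcases centre_or_centre F hF u v huv with hu | hv
          · exact ⟨⟨u, v⟩, (hmem _).2 ⟨(hCmem u).2 hu, huv⟩, rfl⟩
          · exact ⟨⟨v, u⟩, (hmem _).2 ⟨(hCmem v).2 hv, huv.symm⟩, Sym2.eq_swap⟩
    rw [← hcardA, ← himg, Set.InjOn.ncard_image hinj, Set.ncard_coe_finset]
  · intro c hc c' hc' hne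
    exact ⟨centre_not_adj F hF c c' ((hCmem c).1 hc) ((hCmem c').1 hc'),
      fun w h1 h2 => centre_no_common F hF c c' ((hCmem c).1 hc) hne w h1 h2⟩

end Vale.Agent.Lib.P064T
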