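import Vale.Agent.Lib.P064T.Defs

/-!
# P064 (star forests): closed stars of separated centres are disjoint

If the vertices of `C` are pairwise non-adjacent and have no common neighbours, then the closed
stars `{c} ∪ N(c)`, `c ∈ C`, are pairwise disjoint, so their sizes add up to at most `n`.
-/

namespace Vale.Agent.Lib.P064T
open Finset

/-- The closed star of `c`: the vertex `c` together with its neighbours. -/
noncomputable def cstar {n : ℕ} (F : SimpleGraph (Fin n)) (c : Fin n) : Finset (Fin n) := by
  classical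
  exact insert c ((univ : Finset (Fin n)).filter (fun w => F.Adj c w))

theorem mem_cstar {n : ℕ} (F : SimpleGraph (Fin n)) (c x : Fin n) :
    x ∈ cstar F c ↔ x = c ∨ F.Adj c x := by
  classical
  unfold cstar
  rw [Finset.mem_insert, Finset.mem_filter]
  exact ⟨fun h => h.imp id (fun h => h.2), fun h => h.imp id (fun h => ⟨Finset.mem_univ _, h⟩)⟩

theorem card_cstar {n : ℕ} (F : SimpleGraph (Fin n)) (c : Fin n) :
    (cstar F c).card = (F.neighborSet c).ncard + 1 := by
  classical
  unfold cstar
  rw [Finset.card_insert_of_notMem]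
  · congr 1
    rw [← Set.ncard_coe_finset]
    congr 1
    ext w
    simp [SimpleGraph.mem_neighborSet]
  · rw [Finset.mem_filter]
    exact fun h => F.loopless.irrefl c h.2

theorem cstar_disjoint {n : ℕ} (F : SimpleGraph (Fin n)) (C : Finset (Fin n))
    (hsep : ∀ c ∈ C, ∀ c' ∈ C, c ≠ c' → (¬ F.Adj c c') ∧ ∀ w, F.Adj c w → ¬ F.Adj c' w)
    (c : Fin n) (hc : c ∈ C) (c' : Fin n) (hc' : c' ∈ C) (hne : c ≠ c') :
    Disjoint (cstar F c) (cstar F c') := by
  rw [Finset.disjoint_left]
  intro x hx hx'
  rw [mem_cstar] at hx hx'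
  rcases hx with rfl | hx
  · rcases hx' with h | h
    · exact hne h
    · exact (hsep c' hc' x hc (Ne.symm hne)).1 h
  · rcases hx' with rfl | h
    · exact (hsep c hc x hc' hne).1 hx
    · exact (hsep c hc c' hc' hne).2 x hx h

/-- The closed stars of separated centres have total size at most `n`. -/
theorem closed_stars_card {n : ℕ} (F : SimpleGraph (Fin n)) (C : Finset (Fin n))
    (hsep : ∀ c ∈ C, ∀ c' ∈ C, c ≠ c' → (¬ F.Adj c c') ∧ ∀ w, F.Adj c w → ¬ F.Adj c' w) :
    ∑ c ∈ C, ((F.neighborSet c).ncard + 1) ≤ n := by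
  classical
  have h1 : ∑ c ∈ C, ((F.neighborSet c).ncard + 1) = (C.biUnion (cstar F)).card := by
    rw [Finset.card_biUnion (fun c hc c' hc' hne => cstar_disjoint F C hsep c hc c' hc' hne)]
    exact Finset.sum_congr rfl (fun c _ => (card_cstar F c).symm)
  rw [h1]
  calc (C.biUnion (cstar F)).card ≤ (univ : Finset (Fin n)).card :=
        Finset.card_le_card (Finset.subset_univ _)
    _ = n := by rw [Finset.card_univ, Fintype.card_fin]

end Vale.Agent.Lib.P064T
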